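import Crest.Agent.R264.Base.Cd

/-! Row 264, block MT: the invariant measure (Hausdorff measure of the metric `cd`). -/

set_option autoImplicit false
set_option linter.unusedSectionVars false
open Set Filter Topology Metric MeasureTheory
open scoped ENNReal NNReal

namespace Crest.Agent.R264.MT

theorem exists_meas {T V : Type} [TopologicalSpace T] [MeasurableSpace T] [BorelSpace T] [NormedAddCommGroup V]
    [NormedSpace ℝ V] [FiniteDimensional ℝ V] (d : T → T → ℝ) (d0 : ∀ x, d x x = 0) (dc : ∀ x y, d x y = d y x)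
    (dt : ∀ x y z, d x z ≤ d x y + d y z) (H : ∀ s : Set T, IsOpen s ↔ ∀ x ∈ s, ∃ ε > 0, ∀ y, d x y < ε → y ∈ s)
    (de : ∀ x y, d x y = 0 → x = y)
    (hfin : ∀ x, ∃ (h : V → T) (O : Set V) (C : ℝ≥0), Bornology.IsBounded O ∧ h '' O ∈ 𝓝 x ∧
      ∀ u ∈ O, ∀ v ∈ O, d (h u) (h v) ≤ C * dist u v)
    (hpos : ∃ (U : Set T) (Ψ : T → V) (C : ℝ≥0) (v : V), Ψ '' U ∈ 𝓝 v ∧
      ∀ x ∈ U, ∀ y ∈ U, dist (Ψ x) (Ψ y) ≤ C * d x y) :
    ∃ Ω : Measure T, Ω ≠ 0 ∧ IsLocallyFiniteMeasure Ω ∧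
      ∀ f : T → T, (∀ x y, d (f x) (f y) = d x y) → Function.Surjective f → MeasurePreserving f Ω Ω := by
  let _ : MetricSpace T := MetricSpace.ofDistTopology d d0 dc dt H de
  have hd : ∀ x y : T, dist x y = d x y := fun _ _ => rfl
  borelize V
  have hD : (0 : ℝ) ≤ (Module.finrank ℝ V : ℝ) := Nat.cast_nonneg _
  refine ⟨μH[(Module.finrank ℝ V : ℝ)], ?_, ⟨fun x => ?_⟩, fun f hf hs => ?_⟩
  · obtain ⟨U, Ψ, C, v, hv, hl⟩ := hpos
    have hL : LipschitzOnWith C Ψ U := LipschitzOnWith.of_dist_le_mul hl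
    have h1 := hL.hausdorffMeasure_image_le hD
    intro h0
    rw [h0] at h1
    have h2 := (μH[(Module.finrank ℝ V : ℝ)] : Measure V).measure_pos_of_mem_nhds hv
    simp only [Measure.coe_zero, Pi.zero_apply, mul_zero, nonpos_iff_eq_zero] at h1
    exact h2.ne' h1
  · obtain ⟨h, O, C, hb, hx, hl⟩ := hfin x
    have hL : LipschitzOnWith C h O := LipschitzOnWith.of_dist_le_mul hl
    refine ⟨h '' O, hx, lt_of_le_of_lt (hL.hausdorffMeasure_image_le hD) ?_⟩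
    exact ENNReal.mul_lt_top (ENNReal.rpow_lt_top_of_nonneg hD ENNReal.coe_ne_top) hb.measure_lt_top
  · have hi : Isometry f := Isometry.of_dist_eq hf
    refine ⟨hi.continuous.measurable, ?_⟩
    rw [hi.map_hausdorffMeasure (Or.inr hs), hs.range_eq, Measure.restrict_univ]

variable {E : Type}
  [NormedAddCommGroup E] [NormedSpace ℂ E] [NormedSpace ℝ E] [IsScalarTower ℝ ℂ E] [FiniteDimensional ℂ E]

/-- an automorphism invariant, locally finite, nonzero measure -/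
theorem exists_inv_measure {n : ℕ} {X : Set E} (hX : CM n X) [MeasurableSpace E] [BorelSpace E] :
    ∃ Ω : Measure X, Ω ≠ 0 ∧ IsLocallyFiniteMeasure Ω ∧
      ∀ (f g : E → E) (h : Bih X X f g), MeasurePreserving (h.mf.restrict f X X) Ω Ω := by
  classical
  obtain ⟨C, hC, hCd⟩ := norm_le_cd hX.bdd
  refine (exists_meas (T := X) (V := Fin n → ℂ) (fun x y => cd X x y) (fun x => cd_self X x)
    (fun x y => cd_comm X x y) (fun x y z => cd_triangle x.2 y.2 z.2) ?_ ?_ ?_ ?_).imp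
      fun Ω hΩ => ⟨hΩ.1, hΩ.2.1, fun f g h => hΩ.2.2 _ (fun x y => h.cd_eq x.2 y.2)
        fun y => ⟨⟨g y, h.mg y.2⟩, Subtype.ext (h.fg y y.2)⟩⟩
  · intro s
    constructor
    · intro hs x hx
      obtain ⟨δ, hδ, hb⟩ := Metric.isOpen_iff.1 hs x hx
      refine ⟨δ / C, div_pos hδ hC, fun y hy => hb ?_⟩
      rw [mem_ball', Subtype.dist_eq, dist_eq_norm]
      refine lt_of_le_of_lt (hCd x x.2 y y.2) ?_
      rwa [lt_div_iff₀' hC] at hy
    · intro hs
      refine isOpen_iff_mem_nhds.2 fun x hx => ?_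
      obtain ⟨ε, hε, hb⟩ := hs x hx
      have hc : Continuous fun y : X => cd X x y :=
        (cd_continuousOn hX.mfd).comp_continuous (f := fun y : X => ((x : E), (y : E)))
          (by fun_prop) fun y => ⟨x.2, y.2⟩
      have : ∀ᶠ y : X in 𝓝 x, cd X x y < ε :=
        hc.continuousAt.eventually_lt continuousAt_const (by simpa [cd_self] using hε)
      exact this.mono hb
  · intro x y hxy
    have := hCd x x.2 y y.2
    rw [hxy, mul_zero] at this
    exact Subtype.ext (sub_eq_zero.1 (norm_le_zero_iff.1 this))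
  · intro x
    obtain ⟨h, Ψ, O, W, c, hxW⟩ := hX.mfd x x.2
    obtain ⟨hv, hx⟩ := c.hW x ⟨x.2, hxW⟩
    obtain ⟨O', hO', L, hL, hcd⟩ := cd_le_norm hX.mfd x.2
    obtain ⟨K, t, ht, hK⟩ := ((c.ah _ hv).contDiffAt (n := 1)).exists_lipschitzOnWith
    have hO'' : h ⁻¹' O' ∈ 𝓝 (Ψ x) := (c.ah _ hv).continuousAt.preimage_mem_nhds (by rwa [hx])
    set N := t ∩ O ∩ h ⁻¹' O' ∩ ball (Ψ x) 1 with hN
    have hNn : N ∈ 𝓝 (Ψ x) :=
      inter_mem (inter_mem (inter_mem ht (c.oO.mem_nhds hv)) hO'') (ball_mem_nhds _ one_pos)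
    set h' : (Fin n → ℂ) → X := fun v => if hv : h v ∈ X then ⟨h v, hv⟩ else x with hh'
    have e : ∀ v ∈ N, (h' v : E) = h v := fun v hv => by
      simp [hh', (c.hO v hv.1.1.2).1.1]
    refine ⟨h', N, ⟨L, hL⟩ * K, isBounded_ball.subset inter_subset_right, ?_, fun u hu v hv => ?_⟩
    · have h1 : h '' N ∈ 𝓝[X] (x : E) := by
        have := c.map_nhds hv
        rw [hx] at this
        rw [← this]
        exact image_mem_map hNn
      rw [nhdsWithin_eq_map_subtype_coe x.2, mem_map] at h1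
      refine mem_of_superset h1 ?_
      rintro y ⟨v, hv, hy⟩
      exact ⟨v, hv, Subtype.ext ((e v hv).trans hy)⟩
    · simp only [e u hu, e v hv]
      refine (hcd _ ⟨(c.hO u hu.1.1.2).1.1, hu.1.2⟩ _ ⟨(c.hO v hv.1.1.2).1.1, hv.1.2⟩).trans ?_
      rw [← dist_eq_norm, NNReal.coe_mul, mul_assoc]
      exact mul_le_mul_of_nonneg_left (hK.dist_le_mul u hu.1.1.1 v hv.1.1.1) hL
  · obtain ⟨x, hxX⟩ := hX.conn.nonempty
    obtain ⟨h, Ψ, O, W, c, hxW⟩ := hX.mfd x hxX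
    obtain ⟨hv, hx⟩ := c.hW x ⟨hxX, hxW⟩
    obtain ⟨K, t, ht, hK⟩ := ((c.aΨ _ hxW).contDiffAt (n := 1)).exists_lipschitzOnWith
    refine ⟨{y | (y : E) ∈ t}, fun y => Ψ y, K * ⟨C, hC.le⟩, Ψ x, ?_, fun y hy z hz => ?_⟩
    · have h1 : h ⁻¹' t ∈ 𝓝 (Ψ x) := (c.ah _ hv).continuousAt.preimage_mem_nhds (by rwa [hx])
      filter_upwards [h1, c.oO.mem_nhds hv] with v h1 h2
      exact ⟨⟨h v, (c.hO v h2).1.1⟩, h1, (c.hO v h2).2⟩
    · refine (hK.dist_le_mul _ hy _ hz).trans ?_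
      rw [NNReal.coe_mul, mul_assoc, dist_eq_norm]
      exact mul_le_mul_of_nonneg_left (hCd y y.2 z z.2) K.2

end Crest.Agent.R264.MT
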