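import Crest.Agent.R264.Lie.Cartan

/-! Row 264, block MT: the invariant family of symmetric bodies in the Lie algebra. -/

set_option autoImplicit false
set_option linter.unusedSectionVars false
open Set Filter Topology Metric
open scoped ENNReal NNReal

namespace Crest.Agent.R264.MT

variable {E : Type}
  [NormedAddCommGroup E] [NormedSpace ℂ E] [NormedSpace ℝ E] [IsScalarTower ℝ ℂ E] [FiniteDimensional ℂ E]

/-- the flow of `W` has `cd`-speed at most one near `x` -/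
def Kap (X : Set E) (ε : ℝ) (x : E) (W : E → E) : Prop :=
  ∀ y ∈ X, cd X x y < ε → ∀ t : ℝ, cd X y (fl X W t y) ≤ |t|

theorem Kap_push {n : ℕ} {X : Set E} (hX : Mfd n X) {f g : E → E} (h : Bih X X f g) {W : E → E} (hW : Gen X W)
    {ε : ℝ} {x : E} (hx : x ∈ X) : Kap X ε (f x) (push X X f g W) ↔ Kap X ε x W := by
  have hp := (hW.pushf hX h).2
  have hm := hW.isFlow.maps
  constructor
  · intro H y hy hxy t
    have := H (f y) (h.mf hy) (by rwa [h.cd_eq hx hy]) t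
    rwa [hp t _ (h.mf hy), h.gf y hy, h.cd_eq hy (hm t hy)] at this
  · intro H y hy hxy t
    have hg := h.mg hy
    have := H (g y) hg (by rwa [← h.cd_eq hx hg, h.fg y hy]) t
    rwa [← h.cd_eq hg (hm t hg), h.fg y hy, ← hp t _ hy] at this

theorem fl_neg {X : Set E} {W : E → E} (hW : Gen X W) (t : ℝ) {x : E} (hx : x ∈ X) :
    fl X (-W) t x = fl X W (-t) x := by
  have := (hW.rsmul (-1)).2 t x hx
  simpa using this

theorem Kap_neg {X : Set E} {W : E → E} (hW : Gen X W) {ε : ℝ} {x : E} : Kap X ε x (-W) ↔ Kap X ε x W := by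
  constructor
  · intro H y hy hxy t
    have := H y hy hxy (-t)
    rwa [fl_neg hW _ hy, neg_neg, abs_neg] at this
  · intro H y hy hxy t
    have := H y hy hxy (-t)
    rwa [← fl_neg hW _ hy, abs_neg] at this

theorem Kap_bdd {X : Set E} (hb : Bornology.IsBounded X) : ∃ C : ℝ, ∀ (W : E → E), Gen X W → ∀ (ε : ℝ) (x : E),
    Kap X ε x W → ∀ y ∈ X, cd X x y < ε → ‖W y‖ ≤ C := by
  obtain ⟨C, hC, hCd⟩ := norm_le_cd hb
  refine ⟨C, fun W hW ε x H y hy hxy => (hW.isFlow.der y hy).le_of_lip' hC.le (Eventually.of_forall fun t => ?_)⟩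
  rw [hW.isFlow.zero y hy, norm_sub_rev, sub_zero, Real.norm_eq_abs]
  exact (hCd _ hy _ (hW.isFlow.maps t hy)).trans (mul_le_mul_of_nonneg_left (H y hy hxy t) hC.le)

/-- the speed of a flow is controlled by the value of the field at the initial point -/
theorem speed_loc {n : ℕ} {X : Set E} (hX : Mfd n X) {x : E} (hx : x ∈ X) : ∃ O ∈ 𝓝 x, ∃ L : ℝ, 0 ≤ L ∧
    ∀ W, Gen X W → ∀ y ∈ X ∩ O, ∀ t : ℝ, cd X y (fl X W t y) ≤ L * ‖W y‖ * |t| := by
  obtain ⟨O, hO, -, L, hL, H⟩ := unif_lip (F := ℂ) hX hx univ_mem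
  refine ⟨O, hO, L, hL, fun W hW y hy t => cd_le fun f hf hb => ?_⟩
  have hφ := hW.isFlow
  have hd : ∀ s, HasDerivAt (fun s => f (fl X W s y)) (Dv X (fun z => f (fl X W s z)) y (W y)) s := by
    intro s
    have ha : AnalyticOn ℂ (fun z => f (fl X W s z)) X := hf.comp (hφ.an s) (hφ.maps s)
    have h1 := hasDerivAt_comp_curve (f := fun z => f (fl X W s z)) (hφ.der y hy.1)
      (Eventually.of_forall fun u => hφ.maps u hy.1)
      (by rw [hφ.zero y hy.1]; exact ha.differentiableOn y hy.1)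
    rw [hφ.zero y hy.1] at h1
    have h2 : HasDerivAt (fun u => f (fl X W s (fl X W (u - s) y))) (Dv X (fun z => f (fl X W s z)) y (W y)) s := by
      exact HasDerivAt.comp_sub_const s s (f := fun u => f (fl X W s (fl X W u y))) (by rw [sub_self]; exact h1)
    refine h2.congr_of_eventuallyEq (Eventually.of_forall fun u => ?_)
    simp only [← hφ.add _ _ y hy.1, add_sub_cancel]
  have hbd : ∀ s, ‖Dv X (fun z => f (fl X W s z)) y (W y)‖ ≤ L * ‖W y‖ := by
    intro s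
    have ha : AnalyticOn ℂ (fun z => f (fl X W s z)) X := hf.comp (hφ.an s) (hφ.maps s)
    have := (H (fun z => f (fl X W s z)) 1 (by simpa using ha) (fun z hz => hb _ (hφ.maps s hz.1))).2 y hy _
      (hW.vf.tan y hy.1)
    simpa using this
  have := Convex.norm_image_sub_le_of_norm_hasDerivWithin_le (s := univ) (x := t) (y := 0)
    (fun s _ => (hd s).hasDerivWithinAt) (fun s _ => hbd s) convex_univ (mem_univ _) (mem_univ _)
  simpa [hφ.zero y hy.1] using this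

theorem speed_cpt {n : ℕ} {X : Set E} (hX : Mfd n X) {Q : Set E} (hQ : IsCompact Q) (hs : Q ⊆ X) : ∃ L : ℝ, 0 ≤ L ∧
    ∀ W, Gen X W → ∀ y ∈ Q, ∀ t : ℝ, cd X y (fl X W t y) ≤ L * ‖W y‖ * |t| := by
  refine hQ.induction_on (p := fun S => ∃ L : ℝ, 0 ≤ L ∧
    ∀ W, Gen X W → ∀ y ∈ S, ∀ t : ℝ, cd X y (fl X W t y) ≤ L * ‖W y‖ * |t|) ⟨0, le_rfl, by simp⟩ ?_ ?_ ?_
  · rintro S T hST ⟨L, hL, H⟩
    exact ⟨L, hL, fun W hW y hy => H W hW y (hST hy)⟩
  · rintro S T ⟨L, hL, H⟩ ⟨L', hL', H'⟩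
    refine ⟨L + L', by positivity, fun W hW y hy t => ?_⟩
    rcases hy with hy | hy
    · exact (H W hW y hy t).trans (by gcongr; linarith)
    · exact (H' W hW y hy t).trans (by gcongr; linarith)
  · intro x hx
    obtain ⟨O, hO, L, hL, H⟩ := speed_loc hX (hs hx)
    exact ⟨Q ∩ O, inter_mem_nhdsWithin _ hO, L, hL, fun W hW y hy => H W hW y ⟨hs hy.1, hy.2⟩⟩

variable {d : ℕ} {ι : (Fin d → ℝ) →ₗ[ℝ] (E → E)}

theorem iota_eq (ι : (Fin d → ℝ) →ₗ[ℝ] (E → E)) (c : Fin d → ℝ) : ι c = ∑ j, c j • ι (Pi.single j 1) := by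
  conv_lhs => rw [pi_eq_sum_univ' c]
  simp [map_sum]

theorem exp_cont' {n : ℕ} {X : Set E} (hX : CM n X) (hg : ∀ c, Gen X (ι c)) :
    Continuous fun p : X × (Fin d → ℝ) => fl X (ι p.2) 1 p.1 := by
  have := (exp_cont hX (W := fun j => ι (Pi.single j 1)) fun j => hg _).comp_continuous
    (f := fun p : X × (Fin d → ℝ) => (p.2, (p.1 : E))) (by fun_prop) fun p => ⟨mem_univ _, p.1.2⟩
  refine this.congr fun p => ?_
  simp only [Function.comp_apply, ← iota_eq]

theorem Kap_closed {n : ℕ} {X : Set E} (hX : CM n X) (hg : ∀ c, Gen X (ι c)) (ε : ℝ) :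
    IsClosed {p : X × (Fin d → ℝ) | Kap X ε p.1 (ι p.2)} := by
  have : {p : X × (Fin d → ℝ) | Kap X ε p.1 (ι p.2)} = ⋂ y : X, ⋂ t : ℝ,
      ({p : X × (Fin d → ℝ) | ε ≤ cd X p.1 y} ∪ {p | cd X y (fl X (ι (t • p.2)) 1 y) ≤ |t|}) := by
    ext p
    have e : ∀ (y : X) (t : ℝ), fl X (ι (t • p.2)) 1 y = fl X (ι p.2) t y := fun y t => by
      rw [map_smul, ((hg p.2).rsmul t).2 1 y y.2, one_mul]
    simp only [mem_ofPred_eq, mem_iInter, mem_union, e, Kap]
    constructor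
    · intro H y t
      rcases le_or_gt ε (cd X p.1 y) with h | h
      · exact Or.inl h
      · exact Or.inr (H y y.2 h t)
    · intro H y hy h t
      exact (H ⟨y, hy⟩ t).resolve_left (not_le.2 h)
  rw [this]
  refine isClosed_iInter fun y => isClosed_iInter fun t => IsClosed.union ?_ ?_
  · exact isClosed_le continuous_const ((cd_continuousOn hX.mfd).comp_continuous
      (f := fun p : X × (Fin d → ℝ) => ((p.1 : E), (y : E))) (by fun_prop) fun p => ⟨p.1.2, y.2⟩)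
  · have h1 : Continuous fun p : X × (Fin d → ℝ) => fl X (ι (t • p.2)) 1 y :=
      (exp_cont' hX hg).comp (f := fun p : X × (Fin d → ℝ) => (y, t • p.2)) (by fun_prop)
    exact isClosed_le ((cd_continuousOn hX.mfd).comp_continuous
      (f := fun p : X × (Fin d → ℝ) => ((y : E), fl X (ι (t • p.2)) 1 y)) (continuous_const.prodMk h1)
      fun p => ⟨y.2, (hg _).isFlow.maps 1 y.2⟩) continuous_const

theorem Kap_nhds {n : ℕ} {X : Set E} (hX : Mfd n X) (hg : ∀ c, Gen X (ι c)) {ε : ℝ} {x : E}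
    (hc : IsCompact {y | y ∈ X ∧ cd X x y ≤ ε}) : {c | Kap X ε x (ι c)} ∈ 𝓝 (0 : Fin d → ℝ) := by
  obtain ⟨L, hL, H⟩ := speed_cpt hX hc fun y hy => hy.1
  have hM : ∀ j, ∃ M, ∀ y ∈ {y | y ∈ X ∧ cd X x y ≤ ε}, ‖ι (Pi.single j 1) y‖ ≤ M := fun j =>
    hc.exists_bound_of_continuousOn ((hg _).an.continuousOn.mono fun y hy => hy.1)
  choose M hM using hM
  have hc' : Continuous fun c : Fin d → ℝ => L * ∑ j, |c j| * M j := by fun_prop
  have : ∀ᶠ c in 𝓝 (0 : Fin d → ℝ), L * ∑ j, |c j| * M j < 1 :=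
    hc'.continuousAt.eventually_lt continuousAt_const (by simp)
  filter_upwards [this] with c hc y hy hxy t
  refine (H _ (hg c) y ⟨hy, hxy.le⟩ t).trans (mul_le_of_le_one_left (abs_nonneg _) (le_trans ?_ hc.le))
  refine mul_le_mul_of_nonneg_left ?_ hL
  rw [iota_eq, Finset.sum_apply]
  refine (norm_sum_le _ _).trans (Finset.sum_le_sum fun j _ => ?_)
  rw [Pi.smul_apply, norm_smul, Real.norm_eq_abs]
  exact mul_le_mul_of_nonneg_left (hM j y ⟨hy, hxy.le⟩) (abs_nonneg _)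

theorem Kap_bounded {n : ℕ} {X : Set E} (hX : CM n X) (hg : ∀ c, Gen X (ι c)) (hi : Function.Injective ι) {ε : ℝ}
    (hε : 0 < ε) {x : E} (hx : x ∈ X) : Bornology.IsBounded {c | Kap X ε x (ι c)} := by
  obtain ⟨C, hC⟩ := Kap_bdd hX.bdd
  set S := {c | Kap X ε x (ι c)} with hS
  let Lf : {y // y ∈ X ∧ cd X x y < ε} × (E →L[ℝ] ℝ) → (Fin d → ℝ) →ₗ[ℝ] ℝ :=
    fun q => (q.2 : E →ₗ[ℝ] ℝ) ∘ₗ evx ι q.1
  have hker : ⨅ q, LinearMap.ker (Lf q) = ⊥ := by
    rw [eq_bot_iff]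
    intro c hc
    rw [Submodule.mem_iInf] at hc
    have h0 : ∀ y ∈ X, cd X x y < ε → ι c y = 0 := fun y hy hxy =>
      SeparatingDual.eq_zero_of_forall_dual_eq_zero (R := ℝ) fun ℓ => hc (⟨y, hy, hxy⟩, ℓ)
    have hcd : ContinuousWithinAt (fun y => cd X x y) X x :=
      ((cd_continuousOn hX.mfd).comp (f := fun y : E => (x, y)) (by fun_prop) fun y hy => ⟨hx, hy⟩) x hx
    have hev : ∀ᶠ y in 𝓝[X] x, cd X x y < ε := hcd.eventually_lt_const (by simpa [cd_self] using hε)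
    have := ident hX.mfd hX.conn.isPreconnected (hg c).an (g := fun _ => 0) analyticOn_const hx
      (by filter_upwards [hev, self_mem_nhdsWithin] with y h1 h2 using h0 y h2 h1)
    rw [Submodule.mem_bot]
    apply hi
    rw [map_zero]
    ext y
    by_cases hy : y ∈ X
    · exact this y hy
    · exact (hg c).off y hy
  have hb : ∀ K ∈ Submodule.span ℝ (range Lf), ∃ M, ∀ c ∈ S, |K c| ≤ M := by
    intro K hK
    induction hK using Submodule.span_induction with
    | mem K hK =>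
      obtain ⟨q, rfl⟩ := hK
      refine ⟨‖q.2‖ * C, fun c hc => ?_⟩
      exact (q.2.le_opNorm (ι c q.1)).trans
        (mul_le_mul_of_nonneg_left (hC _ (hg c) ε x hc _ q.1.2.1 q.1.2.2) (norm_nonneg _))
    | zero => exact ⟨0, by simp⟩
    | add K K' _ _ h h' =>
      obtain ⟨M, h⟩ := h
      obtain ⟨M', h'⟩ := h'
      exact ⟨M + M', fun c hc => (abs_add_le _ _).trans (add_le_add (h c hc) (h' c hc))⟩
    | smul r K _ h =>
      obtain ⟨M, h⟩ := h
      refine ⟨|r| * M, fun c hc => ?_⟩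
      rw [LinearMap.smul_apply, smul_eq_mul, abs_mul]
      exact mul_le_mul_of_nonneg_left (h c hc) (abs_nonneg _)
  have hj : ∀ j, ∃ M, ∀ c ∈ S, |c j| ≤ M := fun j =>
    hb (LinearMap.proj j) (FiniteDimensional.mem_span_of_iInf_ker_le_ker (hker ▸ bot_le))
  choose M hM using hj
  refine (isBounded_Icc (fun j => -M j) M).subset fun c hc => ⟨fun j => ?_, fun j => ?_⟩
  · exact (abs_le.1 (hM j c hc)).1
  · exact (abs_le.1 (hM j c hc)).2

end Crest.Agent.R264.MT
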