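import Mathlib

/-! Row 264, block MT: the abstract mass transport argument. -/

set_option autoImplicit false
open Set Filter Topology MeasureTheory
open scoped ENNReal

namespace Crest.Agent.R264.MT

section
variable {X Γ : Type} [MeasurableSpace X] [Group Γ] [Countable Γ] {Ω : Measure X} {act : Γ → X → X}

/-- two partitions of unity have the same integral -/
theorem unfold (hp : ∀ γ, MeasurePreserving (act γ) Ω Ω) (h1 : ∀ x, act 1 x = x)
    (hm : ∀ γ γ' x, act (γ * γ') x = act γ (act γ' x)) {ρ₁ ρ₂ : X → ℝ≥0∞} (m₁ : Measurable ρ₁)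
    (m₂ : Measurable ρ₂) (s₁ : ∀ x, ∑' γ, ρ₁ (act γ x) = 1) (s₂ : ∀ x, ∑' γ, ρ₂ (act γ x) = 1) :
    ∫⁻ x, ρ₁ x ∂Ω = ∫⁻ x, ρ₂ x ∂Ω := by
  have key : ∀ {f g : X → ℝ≥0∞}, Measurable f → Measurable g → (∀ x, ∑' γ, g (act γ x) = 1) →
      ∫⁻ x, f x ∂Ω = ∑' γ, ∫⁻ x, f x * g (act γ x) ∂Ω := by
    intro f g mf mg sg
    rw [← lintegral_tsum (f := fun γ x => f x * g (act γ x))
      (fun γ => (mf.mul (mg.comp (hp γ).measurable)).aemeasurable)]
    congr 1; ext x; rw [ENNReal.tsum_mul_left, sg, mul_one]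
  rw [key m₁ m₂ s₂, key m₂ m₁ s₁, ← (Equiv.inv Γ).tsum_eq]
  congr 1; ext γ
  rw [← (hp γ).lintegral_comp (f := fun x => ρ₁ x * ρ₂ (act (Equiv.inv Γ γ) x))
    (m₁.mul (m₂.comp (hp _).measurable))]
  congr 1; ext x
  simp [← hm, h1, mul_comm]

theorem exists_rho (hp : ∀ γ, Measurable (act γ))
    (hm : ∀ γ γ' x, act (γ * γ') x = act γ (act γ' x)) {K : Set X} (hK : MeasurableSet K)
    (hcov : ∀ x, ∃ γ, act γ x ∈ K) (hfin : ∀ x, {γ | act γ x ∈ K}.Finite) :
    ∃ ρ : X → ℝ≥0∞, Measurable ρ ∧ (∀ x, ∑' γ, ρ (act γ x) = 1) ∧ (∀ x, ρ x ≤ K.indicator 1 x) ∧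
      ∀ x ∈ K, ρ x ≠ 0 := by
  set N : X → ℝ≥0∞ := fun x => ∑' γ, K.indicator 1 (act γ x) with hN
  have mI : Measurable (K.indicator (1 : X → ℝ≥0∞)) := measurable_one.indicator hK
  have mN : Measurable N := Measurable.tsum fun γ => mI.comp (hp γ)
  have N1 : ∀ x, 1 ≤ N x := by
    intro x
    obtain ⟨γ, hγ⟩ := hcov x
    refine le_trans ?_ (ENNReal.le_tsum γ)
    simp [hγ]
  have Ntop : ∀ x, N x ≠ ∞ := by
    intro x
    have : N x = ∑ γ ∈ (hfin x).toFinset, K.indicator 1 (act γ x) := by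
      refine tsum_eq_sum fun γ hγ => ?_
      have : act γ x ∉ K := by simpa using hγ
      simp [this]
    rw [this]
    refine ENNReal.sum_ne_top.2 fun γ _ => ?_
    by_cases h : act γ x ∈ K <;> simp [h]
  have Ninv : ∀ γ x, N (act γ x) = N x := by
    intro γ x
    simp only [hN, ← hm]
    exact (Equiv.mulRight γ).tsum_eq (fun δ => K.indicator (1 : X → ℝ≥0∞) (act δ x))
  refine ⟨fun x => K.indicator 1 x * (N x)⁻¹, mI.mul mN.inv, fun x => ?_, fun x => ?_, fun x hx => ?_⟩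
  · simp only [Ninv]
    rw [ENNReal.tsum_mul_right]
    exact ENNReal.mul_inv_cancel (lt_of_lt_of_le one_pos (N1 x)).ne' (Ntop x)
  · exact mul_le_of_le_one_right' (ENNReal.inv_le_one.2 (N1 x))
  · simp [hx, Ntop x]

end

section
variable {V : Type} [NormedAddCommGroup V] [NormedSpace ℝ V] [FiniteDimensional ℝ V] [MeasurableSpace V]
  [BorelSpace V] (μ : Measure V) [μ.IsAddHaarMeasure]

theorem lint_lin {A : V →ₗ[ℝ] V} (hA : LinearMap.det A ≠ 0) {G : V → ℝ≥0∞} (hG : Measurable G) :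
    ∫⁻ a, G (A a) ∂μ = ENNReal.ofReal |(LinearMap.det A)⁻¹| * ∫⁻ a, G a ∂μ := by
  have mA : Measurable A := A.continuous_of_finiteDimensional.measurable
  rw [← lintegral_map hG mA, Measure.map_linearMap_addHaar_eq_smul_addHaar μ hA, lintegral_smul_measure,
    smul_eq_mul]

/-- the average of `exp (τ a)` over a symmetric set exceeds `1` -/
theorem lt_avg {τ : V →ₗ[ℝ] ℝ} (hτ : τ ≠ 0) {S : Set V} (hS : MeasurableSet S) (hs : ∀ a, -a ∈ S ↔ a ∈ S)
    (h0 : μ S ≠ 0) (ht : μ S ≠ ∞) :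
    μ S < ∫⁻ a, S.indicator 1 a * ENNReal.ofReal (Real.exp (-τ a)) ∂μ := by
  have mτ : Measurable τ := τ.continuous_of_finiteDimensional.measurable
  have mI : Measurable (S.indicator (1 : V → ℝ≥0∞)) := measurable_one.indicator hS
  have m1 : Measurable fun a => S.indicator (1 : V → ℝ≥0∞) a * ENNReal.ofReal (Real.exp (-τ a)) :=
    mI.mul (by fun_prop)
  have m2 : Measurable fun a => S.indicator (1 : V → ℝ≥0∞) a * ENNReal.ofReal (Real.exp (τ a)) :=
    mI.mul (by fun_prop)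
  set J := ∫⁻ a, S.indicator 1 a * ENNReal.ofReal (Real.exp (-τ a)) ∂μ with hJ
  have hJ' : J = ∫⁻ a, S.indicator 1 a * ENNReal.ofReal (Real.exp (τ a)) ∂μ := by
    rw [hJ, ← lintegral_neg_eq_self]
    congr 1; ext a
    have : S.indicator (1 : V → ℝ≥0∞) (-a) = S.indicator 1 a := by
      by_cases h : a ∈ S
      · simp [h, (hs a).2 h]
      · have : -a ∉ S := fun h' => h ((hs a).1 h')
        simp [h, this]
    simp [this]
  have h2 : μ S + μ S < J + J := by
    have e1 : μ S + μ S = ∫⁻ a, S.indicator 1 a + S.indicator 1 a ∂μ := by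
      rw [lintegral_add_left mI, lintegral_indicator_one hS]
    have e2 : J + J = ∫⁻ a, S.indicator 1 a * ENNReal.ofReal (Real.exp (-τ a)) +
        S.indicator 1 a * ENNReal.ofReal (Real.exp (τ a)) ∂μ := by
      rw [lintegral_add_left m1, ← hJ, ← hJ']
    rw [e1, e2]
    have lt : ∀ s : ℝ, s ≠ 0 → (1 : ℝ≥0∞) + 1 < ENNReal.ofReal (Real.exp (-s)) + ENNReal.ofReal (Real.exp s) := by
      intro s hs
      rw [← ENNReal.ofReal_add (Real.exp_pos _).le (Real.exp_pos _).le, ← ENNReal.ofReal_one,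
        ← ENNReal.ofReal_add zero_le_one zero_le_one, ENNReal.ofReal_lt_ofReal_iff (by positivity)]
      have a1 := Real.add_one_lt_exp hs
      have a2 := Real.add_one_lt_exp (neg_ne_zero.2 hs)
      linarith
    refine lintegral_strict_mono_of_ae_le_of_ae_lt_on (m1.add m2).aemeasurable
      (by rw [← e1]; exact ENNReal.add_ne_top.2 ⟨ht, ht⟩) (ae_of_all _ fun a => ?_) h0 ?_
    · by_cases h : a ∈ S
      · by_cases h' : τ a = 0
        · simp [h, h']
        · simpa [h] using (lt _ h').le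
      · simp [h]
    · have : μ (LinearMap.ker τ : Set V) = 0 :=
        Measure.addHaar_submodule μ _ (by rwa [Ne, LinearMap.ker_eq_top])
      filter_upwards [measure_eq_zero_iff_ae_notMem.1 this] with a ha h
      have h' : τ a ≠ 0 := by simpa using ha
      simpa [h] using lt _ h'
  by_contra hc
  push Not at hc
  exact absurd h2 (not_lt.2 (add_le_add hc hc))

end

/-- Mass transport. -/
theorem mass_transport {X Γ V : Type} [MeasurableSpace X] [Group Γ] [Countable Γ] [NormedAddCommGroup V]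
    [NormedSpace ℝ V] [FiniteDimensional ℝ V] [MeasurableSpace V] [BorelSpace V] (μ : Measure V)
    [μ.IsAddHaarMeasure] {Ω : Measure X} [SFinite Ω] {act : Γ → X → X}
    (hp : ∀ γ, MeasurePreserving (act γ) Ω Ω) (h1 : ∀ x, act 1 x = x)
    (hm : ∀ γ γ' x, act (γ * γ') x = act γ (act γ' x)) {K : Set X} (hK : MeasurableSet K)
    (hcov : ∀ x, ∃ γ, act γ x ∈ K) (hfin : ∀ x, {γ | act γ x ∈ K}.Finite) (hK0 : Ω K ≠ 0) (hKt : Ω K ≠ ∞)
    {e : V → X → X} (me : Measurable fun p : X × V => e p.2 p.1) (pe : ∀ a, MeasurePreserving (e a) Ω Ω)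
    (ee : ∀ a x, e a (e (-a) x) = x) {κ : Set (X × V)} (mκ : MeasurableSet κ)
    (κn : ∀ x a, (x, -a) ∈ κ ↔ (x, a) ∈ κ)
    (hA : ∀ γ, ∃ A : V →ₗ[ℝ] V, LinearMap.det A ≠ 0 ∧ (∀ x a, act γ (e a x) = e (A a) (act γ x)) ∧
      ∀ x a, (act γ x, A a) ∈ κ ↔ (x, a) ∈ κ) {τ : V →ₗ[ℝ] ℝ}
    (hB : ∀ a, ∃ B : V →ₗ[ℝ] V, LinearMap.det B = Real.exp (-τ a) ∧ B a = a ∧
      ∀ x b, (e a x, B b) ∈ κ ↔ (x, b) ∈ κ)
    (v0 : ∀ x, μ (Prod.mk x ⁻¹' κ) ≠ 0) (vt : ∀ x, μ (Prod.mk x ⁻¹' κ) ≠ ∞) : τ = 0 := by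
  by_contra hτ
  obtain ⟨ρ, mρ, sρ, ρle, ρne⟩ := exists_rho (fun γ => (hp γ).measurable) hm hK hcov hfin
  set v : X → ℝ≥0∞ := fun x => μ (Prod.mk x ⁻¹' κ) with hv
  have mv : Measurable v := measurable_measure_prodMk_left mκ
  set k : X × V → ℝ≥0∞ := κ.indicator 1 with hk
  have mk : Measurable k := measurable_one.indicator mκ
  have kc : ∀ {p q : X × V}, (p ∈ κ ↔ q ∈ κ) → k p = k q := by
    intro p q h
    by_cases hq : q ∈ κ
    · simp [hk, hq, h.2 hq]
    · have : p ∉ κ := fun hp => hq (h.1 hp)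
      simp [hk, hq, this]
  have kv : ∀ x, ∫⁻ a, k (x, a) ∂μ = v x := by
    intro x
    rw [hv]; dsimp only
    rw [← lintegral_indicator_one (measurable_prodMk_left mκ)]
    rfl
  have sc : ∀ {A : V →ₗ[ℝ] V} {x y : X}, LinearMap.det A ≠ 0 → (∀ a, (y, A a) ∈ κ ↔ (x, a) ∈ κ) →
      v x = ENNReal.ofReal |(LinearMap.det A)⁻¹| * v y := by
    intro A x y hd h
    rw [hv]; dsimp only
    rw [← Measure.addHaar_preimage_linearMap μ hd]
    congr 1; ext a; simp [h]
  -- the averaged partition of unity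
  set P : X → ℝ≥0∞ := fun x => (v x)⁻¹ * ∫⁻ a, k (x, a) * ρ (e a x) ∂μ with hP
  have mkρ : Measurable fun p : X × V => k p * ρ (e p.2 p.1) := mk.mul (mρ.comp me)
  have mP : Measurable P := mv.inv.mul mkρ.lintegral_prod_right'
  have Pγ : ∀ γ x, P (act γ x) = (v x)⁻¹ * ∫⁻ a, k (x, a) * ρ (act γ (e a x)) ∂μ := by
    intro γ x
    obtain ⟨A, hd, hc, hκ⟩ := hA γ
    have c0 : ENNReal.ofReal |(LinearMap.det A)⁻¹| ≠ 0 := by simpa using hd
    have e1 : ∫⁻ a, k (x, a) * ρ (act γ (e a x)) ∂μ =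
        ENNReal.ofReal |(LinearMap.det A)⁻¹| * ∫⁻ a, k (act γ x, a) * ρ (e a (act γ x)) ∂μ := by
      rw [← lint_lin μ hd (G := fun a => k (act γ x, a) * ρ (e a (act γ x)))
        (mkρ.comp measurable_prodMk_left)]
      congr 1; ext a
      rw [hc, kc (hκ x a)]
    rw [e1, sc hd (hκ x), ENNReal.mul_inv (Or.inl c0) (Or.inl ENNReal.ofReal_ne_top), hP]
    dsimp only
    rw [mul_mul_mul_comm, ENNReal.inv_mul_cancel c0 ENNReal.ofReal_ne_top, one_mul]
  have sP : ∀ x, ∑' γ, P (act γ x) = 1 := by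
    intro x
    simp only [Pγ]
    rw [ENNReal.tsum_mul_left, ← lintegral_tsum (f := fun γ a => k (x, a) * ρ (act γ (e a x)))
      (fun γ => ((mk.comp measurable_prodMk_left).mul (mρ.comp ((hp γ).measurable.comp
        (me.comp measurable_prodMk_left)))).aemeasurable)]
    simp only [ENNReal.tsum_mul_left, sρ, mul_one, kv]
    exact ENNReal.inv_mul_cancel (v0 x) (vt x)
  have E1 := unfold hp h1 hm mρ mP sρ sP
  -- the integral of `P`
  have mτ : Measurable τ := τ.continuous_of_finiteDimensional.measurable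
  set w : X → ℝ≥0∞ := fun x => (v x)⁻¹ * ∫⁻ a, k (x, a) * ENNReal.ofReal (Real.exp (-τ a)) ∂μ with hw
  have mkw : Measurable fun p : X × V => k p * ENNReal.ofReal (Real.exp (-τ p.2)) := mk.mul (by fun_prop)
  have mw : Measurable w := mv.inv.mul mkw.lintegral_prod_right'
  have E2 : ∫⁻ x, P x ∂Ω = ∫⁻ x, ρ x * w x ∂Ω := by
    have m1 : Measurable fun p : X × V => (v p.1)⁻¹ * (k p * ρ (e p.2 p.1)) :=
      (mv.comp measurable_fst).inv.mul mkρ
    have m2 : Measurable fun p : X × V => ρ p.1 * ((v p.1)⁻¹ * (k p * ENNReal.ofReal (Real.exp (-τ p.2)))) :=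
      (mρ.comp measurable_fst).mul ((mv.comp measurable_fst).inv.mul mkw)
    calc ∫⁻ x, P x ∂Ω = ∫⁻ x, ∫⁻ a, (v x)⁻¹ * (k (x, a) * ρ (e a x)) ∂μ ∂Ω := by
          congr 1; ext x
          exact (lintegral_const_mul _ (mkρ.comp measurable_prodMk_left)).symm
      _ = ∫⁻ a, ∫⁻ x, (v x)⁻¹ * (k (x, a) * ρ (e a x)) ∂Ω ∂μ := lintegral_lintegral_swap m1.aemeasurable
      _ = ∫⁻ a, ∫⁻ x, ρ x * ((v x)⁻¹ * (k (x, a) * ENNReal.ofReal (Real.exp (-τ a)))) ∂Ω ∂μ := by
          congr 1; ext a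
          rw [← (pe (-a)).lintegral_comp (f := fun x => (v x)⁻¹ * (k (x, a) * ρ (e a x)))
            (m1.comp measurable_prodMk_right)]
          congr 1; ext x
          obtain ⟨B, hd, hBa, hκ⟩ := hB (-a)
          have hd0 : LinearMap.det B ≠ 0 := by rw [hd]; exact (Real.exp_pos _).ne'
          have e1 : k (e (-a) x, a) = k (x, a) := by
            have := kc (hκ x (-a))
            rw [hBa] at this
            rw [← kc (κn _ a), this, kc (κn x a)]
          have e2 := sc hd0 (hκ x)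
          have e3 : |(LinearMap.det B)⁻¹| = Real.exp (-τ a) := by
            rw [hd, ← Real.exp_neg, abs_of_pos (Real.exp_pos _)]; simp
          have c0 : ENNReal.ofReal (Real.exp (-τ a)) ≠ 0 := by simpa using Real.exp_pos _
          rw [e3] at e2
          rw [ee, e1, e2, ENNReal.mul_inv (Or.inl c0) (Or.inl ENNReal.ofReal_ne_top)]
          calc _ = (v (e (-a) x))⁻¹ * (k (x, a) * ρ x) *
                ((ENNReal.ofReal (Real.exp (-τ a)))⁻¹ * ENNReal.ofReal (Real.exp (-τ a))) := by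
                rw [ENNReal.inv_mul_cancel c0 ENNReal.ofReal_ne_top, mul_one]
            _ = _ := by ring
      _ = ∫⁻ x, ∫⁻ a, ρ x * ((v x)⁻¹ * (k (x, a) * ENNReal.ofReal (Real.exp (-τ a)))) ∂μ ∂Ω :=
          (lintegral_lintegral_swap (f := fun x a => ρ x * ((v x)⁻¹ * (k (x, a) * ENNReal.ofReal (Real.exp (-τ a)))))
            m2.aemeasurable).symm
      _ = _ := by
          congr 1; ext x
          have m3 : Measurable fun a => k (x, a) * ENNReal.ofReal (Real.exp (-τ a)) :=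
            mkw.comp measurable_prodMk_left
          rw [lintegral_const_mul _ (m3.const_mul _), lintegral_const_mul _ m3]
  have w1 : ∀ x, 1 < w x := by
    intro x
    have := lt_avg μ hτ (measurable_prodMk_left mκ : MeasurableSet (Prod.mk x ⁻¹' κ)) (κn x) (v0 x) (vt x)
    rw [← ENNReal.inv_mul_cancel (v0 x) (vt x)]
    exact ENNReal.mul_lt_mul_right (ENNReal.inv_ne_zero.2 (vt x)) (ENNReal.inv_ne_top.2 (v0 x)) this
  have ρt : ∀ x, ρ x ≠ ∞ := fun x => ne_top_of_le_ne_top (by by_cases h : x ∈ K <;> simp [h]) (ρle x)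
  have fin : ∫⁻ x, ρ x ∂Ω ≠ ∞ := by
    refine ne_top_of_le_ne_top hKt ?_
    rw [← lintegral_indicator_one hK]
    exact lintegral_mono ρle
  have lt : ∫⁻ x, ρ x ∂Ω < ∫⁻ x, ρ x * w x ∂Ω := by
    refine lintegral_strict_mono_of_ae_le_of_ae_lt_on (mρ.mul mw).aemeasurable fin
      (ae_of_all _ fun x => le_mul_of_one_le_right' (w1 x).le) hK0 (ae_of_all _ fun x hx => ?_)
    conv_lhs => rw [← mul_one (ρ x)]
    exact ENNReal.mul_lt_mul_right (ρne x hx) (ρt x) (w1 x)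
  rw [← E2, ← E1] at lt
  exact lt_irrefl _ lt

end Crest.Agent.R264.MT
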